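import Vale.Agent.P038.Main
import Vale.Agent.P038.Dom
import Vale.Agent.P038.EulerK

/-!
# P038 (Seymour's second neighbourhood conjecture)

Exact cases (oriented graphs in which of two non-adjacent vertices one reaches all out-neighbours
of the other by at most two arcs; Eulerian oriented graphs with at most three non-neighbours per
vertex) and robust versions.
-/

namespace Vale.Agent.Results.P038.ExactAndRobust

open Vale.Agent.P038 Vale.Agent.P038.Euler

theorem card_out {V : Type} [Fintype V] (D : V → V → Prop) (v : V) :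
    (N1 D v).ncard = (out D v).card := by
  rw [← Set.ncard_coe_finset]
  congr 1
  ext u
  simp [N1, mem_out]

theorem card_inn {V : Type} [Fintype V] (D : V → V → Prop) (v : V) :
    ({u | D u v} : Set V).ncard = (inn D v).card := by
  rw [← Set.ncard_coe_finset]
  congr 1
  ext u
  simp [mem_inn]

theorem card_non' {V : Type} [Fintype V] (D : V → V → Prop) (v : V) :
    ({u | u ≠ v ∧ ¬ D u v ∧ ¬ D v u} : Set V).ncard = (non D v).card := by
  rw [← Set.ncard_coe_finset]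
  congr 1
  ext u
  simp [mem_non]

theorem card_sec {V : Type} [Fintype V] (D : V → V → Prop) (v : V) :
    (N2 D v).ncard = (sec D v).card := by
  rw [← Set.ncard_coe_finset]
  congr 1
  ext u
  simp only [N2, Set.mem_ofPred_eq, Finset.mem_coe, mem_sec]

/-- `D` is an oriented graph on the finite nonempty vertex set `V`, `n = card V`. -/
theorem result (V : Type) [Fintype V] [Nonempty V]
    (D : V → V → Prop) (hD : ∀ x y, D x y → ¬ D y x) :
    -- (1) Eulerian, at most three non-neighbours per vertex: the conjecture holds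
    ((∀ v, (N1 D v).ncard = ({u | D u v} : Set V).ncard) →
      (∀ v, ({u | u ≠ v ∧ ¬ D u v ∧ ¬ D v u} : Set V).ncard ≤ 3) →
      ∃ v, (N1 D v).ncard ≤ (N2 D v).ncard) ∧
    -- (2) Eulerian, at most `k` non-neighbours per vertex: some deficit is at most `(3k-5)/5`
    ((∀ v, (N1 D v).ncard = ({u | D u v} : Set V).ncard) →
      ∀ k : ℕ, (∀ v, ({u | u ≠ v ∧ ¬ D u v ∧ ¬ D v u} : Set V).ncard ≤ k) →
      ∃ v, 5 * (N1 D v).ncard ≤ 5 * (N2 D v).ncard + (3 * k - 5)) ∧
    -- (3) Eulerian: deficit at `v` if for each `c` at distance at least three from `v` at most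
    -- `K ≥ 1` out-neighbours of `v` are not adjacent to `c`
    ((∀ v, (N1 D v).ncard = ({u | D u v} : Set V).ncard) →
      ∀ K : ℕ, 1 ≤ K → ∀ v, (∀ c, c ≠ v → ¬ D v c → (¬ ∃ x, D v x ∧ D x c) →
        ({u | D v u ∧ ¬ D u c ∧ ¬ D c u} : Set V).ncard ≤ K) →
      (N1 D v).ncard ≤ (N2 D v).ncard + (K - 1)) ∧
    -- (4) for distinct non-adjacent `a`, `b` one of them reaches all out-neighbours of the other by
    -- at most two arcs: some random vertex `v` has `P (w ∈ N1 v) ≤ P (w ∈ N2 v)` for all `w`, and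
    -- the conjecture holds
    ((∀ a b, a ≠ b → ¬ D a b → ¬ D b a →
        (∀ w, D a w → D b w ∨ ∃ x, D b x ∧ D x w) ∨
        (∀ w, D b w → D a w ∨ ∃ x, D a x ∧ D x w)) →
      (∃ p : V → ℝ, (∀ v, 0 ≤ p v) ∧ ∑ v, p v = 1 ∧
        ∀ w, wt p {v | w ∈ N1 D v} ≤ wt p {v | w ∈ N2 D v}) ∧
      ∃ v, (N1 D v).ncard ≤ (N2 D v).ncard) ∧
    -- (5) every `D` has a losing density
    (∃ p : V → ℝ, (∀ v, 0 ≤ p v) ∧ ∑ v, p v = 1 ∧ ∀ v, wt p {u | D u v} ≤ wt p (N1 D v)) ∧
    -- (6) losing density `p`, and for non-adjacent `a`, `b` in the support all out-neighbours of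
    -- `a` are at distance at most two from `b`: the conjecture holds
    (∀ p : V → ℝ, (∀ v, 0 ≤ p v) → ∑ v, p v = 1 →
      (∀ v, wt p {u | D u v} ≤ wt p (N1 D v)) →
      (∀ a b, 0 < p a → 0 < p b → a ≠ b → ¬ D a b → ¬ D b a →
        ∀ w, D a w → D b w ∨ ∃ x, D b x ∧ D x w) →
      ∃ v, (N1 D v).ncard ≤ (N2 D v).ncard) ∧
    -- (7) robust form of (6)
    (∀ p : V → ℝ, (∀ v, 0 ≤ p v) → ∑ v, p v = 1 →
      (∀ v, wt p {u | D u v} ≤ wt p (N1 D v)) → ∀ κ : ℝ, 0 ≤ κ →
      (∀ b w, 0 < p b → b ≠ w → ¬ D b w → (¬ ∃ x, D b x ∧ D x w) →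
        wt p {u | D u w ∧ ¬ D u b ∧ ¬ D b u} ≤ κ) →
      ∃ v, 0 < p v ∧ ((N1 D v).ncard : ℝ) ≤ (N2 D v).ncard + κ * Fintype.card V) ∧
    -- (8) the non-adjacency graph is close to a threshold graph `H`
    (∀ δ : ℝ, 0 < δ → δ ≤ 1 → ∀ H : SimpleGraph V, IsThreshold H →
      ({q : V × V | Bad D H q.1 q.2}.ncard : ℝ) ≤ δ ^ 4 / 5000 * (Fintype.card V : ℝ) ^ 2 →
      ∃ v, ((N1 D v).ncard : ℝ) ≤ (N2 D v).ncard + δ * Fintype.card V) ∧
    -- (9) ratio form of (8) for linear minimum outdegree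
    (∀ δ : ℝ, 0 < δ → δ ≤ 1 → ∀ α : ℝ, 0 < α →
      (∀ v, α * Fintype.card V ≤ (N1 D v).ncard) →
      ∀ H : SimpleGraph V, IsThreshold H →
      ({q : V × V | Bad D H q.1 q.2}.ncard : ℝ) ≤ δ ^ 4 / 5000 * (Fintype.card V : ℝ) ^ 2 →
      ∃ v, (1 - δ / α) * ((N1 D v).ncard : ℝ) ≤ (N2 D v).ncard) ∧
    -- (10) weighted form of (8)
    (∀ δ : ℝ, 0 < δ → δ ≤ 1 → ∀ H : SimpleGraph V, IsThreshold H →
      ∀ ω : V → ℝ, (∀ v, 0 ≤ ω v) → ∑ v, ω v = 1 →
      (∑ u, ∑ v, by classical exact (if Bad D H u v then ω u * ω v else 0)) ≤ δ ^ 4 / 5000 →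
      ∃ v, wt ω (N1 D v) ≤ wt ω (N2 D v) + δ) := by
  refine ⟨fun hE hk => ?_, fun hE k hk => ?_, fun hE K hK v hk => ?_,
    fun hT => ⟨one_sided_dist D hD hT, ?_⟩, exists_losing D,
    fun p hp hs hl hT => losing_exact D hD p hp hs hl hT,
    fun p hp hs hl κ hκ hM => losing_exists D hD p hp hs hl κ hκ hM,
    fun δ h0 h1 H hH hε => counting δ h0 h1 D hD H hH hε,
    fun δ h0 h1 α hα hmin H hH hε => ?_,
    fun δ h0 h1 H hH ω hω hs hε => weighted δ h0 h1 D hD H hH ω hω hs hε⟩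
  · obtain ⟨v, hv⟩ := eulerian D hD (fun v => by rw [← card_out, ← card_inn]; exact hE v) 3
      (fun v => by rw [← card_non']; exact hk v)
    exact ⟨v, by rw [card_out, card_sec]; omega⟩
  · obtain ⟨v, hv⟩ := eulerian D hD (fun v => by rw [← card_out, ← card_inn]; exact hE v) k
      (fun v => by rw [← card_non']; exact hk v)
    exact ⟨v, by rw [card_out, card_sec]; exact hv⟩
  · classical
    rw [card_out, card_sec]
    refine deficit' D hD (fun v => by rw [← card_out, ← card_inn]; exact hE v) K hK v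
      fun c hc => ?_
    rw [mem_far] at hc
    refine le_trans (le_of_eq ?_) (hk c hc.1 hc.2.1 hc.2.2)
    rw [← Set.ncard_coe_finset]
    congr 1
    ext u
    simp [mem_out]
  · obtain ⟨p, h0, h1, h2⟩ := one_sided_dist D hD hT
    exact of_dist D p h0 h1 h2
  · obtain ⟨v, hv⟩ := counting δ h0 h1 D hD H hH hε
    refine ⟨v, ?_⟩
    have h2 := hmin v
    have h3 : δ * (Fintype.card V : ℝ) ≤ δ / α * (N1 D v).ncard := by
      rw [div_mul_eq_mul_div, le_div_iff₀ hα]
      nlinarith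
    linarith

end Vale.Agent.Results.P038.ExactAndRobust
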